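import Vale.Agent.P176.Findim

open CategoryTheory

theorem Vale.Agent.Results.P176.Counterexample.result (k : Type) [Field k]
    (hk : CharZero k ∨ ∃ q : k, q ≠ 0 ∧ ∀ j : ℕ, q ^ (j + 1) ≠ 1) :
    ∃ (A : Type) (_ : Ring A) (_ : Algebra k A) (_ : Module.Finite k A),
      ∀ n : ℕ, 1 ≤ n → ∃ N : ModuleCat.{0} A,
        Module.Finite A N ∧ projectiveDimension N = (n : WithBot ℕ∞) := by
  obtain ⟨q, h0, hq⟩ : ∃ q : k, q ≠ 0 ∧ ∀ j : ℕ, q ^ (j + 1) ≠ 1 := by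
    rcases hk with hk | hk
    · refine ⟨2, two_ne_zero, fun j h => ?_⟩
      have h2 : (2 : ℕ) ^ (j + 1) = 1 := by exact_mod_cast h
      simp at h2
    · exact hk
  exact Vale.Agent.AR.findim_infinite h0 hq
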